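import Vale.Agent.P193.CoreMain
import Vale.Agent.P193.RingR
import Vale.Agent.P193.Houghton
import Vale.Agent.P193.M1

universe u

theorem Vale.Agent.Results.P193.BooneHigman.result :
    ∀ (G : Type u) [Group G] (k : ℕ) (s : Fin k → G),
      Subgroup.closure (Set.range s) = ⊤ →
      ComputablePred (fun w : List (Fin k × Bool) => FreeGroup.lift s (FreeGroup.mk w) = 1) →
      ∃ (H : Type) (_ : Group H), Group.IsFinitelyPresented H ∧ IsSimpleGroup H ∧
        ∃ f : G →* H, Function.Injective f := by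
  intro G _ k s hs hw
  obtain ⟨C⟩ := Vale.Agent.P193.core_exists s hw
  obtain ⟨Ho⟩ := Vale.Agent.P193.hough_exists
  obtain ⟨R, _, ⟨hG⟩, hfp, f, hf⟩ := Vale.Agent.P193.core_to_ring s hs C Ho
  obtain ⟨H, _, h1, h2, g, hg⟩ := Vale.Agent.P193.ring_to_group hG hfp
  exact ⟨H, inferInstance, h1, h2, g.comp f, hg.comp hf⟩
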